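import Vale.Agent.Lib.P091.Params

namespace Vale.Agent.Results.P091.A_main

open MeasureTheory Filter Topology AddCircle

/-- For every period T and every function phi that is nondecreasing and nonnegative on the half line
and is o(u sqrt(log u)) at infinity, there is an integrable complex function f on the circle
with phi(|f|) integrable, such that at every point x the symmetric Fourier sums of f are unbounded;
in particular they converge at no point. -/
theorem result {T : ℝ} [hT : Fact (0 < T)] (φ : ℝ → ℝ)
    (hφm : MonotoneOn φ (Set.Ici 0)) (hφ0 : ∀ u, 0 ≤ u → 0 ≤ φ u)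
    (hφo : Tendsto (fun u : ℝ => φ u / (u * √(Real.log u))) atTop (𝓝 0)) :
    ∃ f : AddCircle T → ℂ, Integrable f haarAddCircle ∧
      Integrable (fun x => φ ‖f x‖) haarAddCircle ∧
      (∀ (x : AddCircle T) (C : ℝ), ∃ N : ℕ,
        C < ‖∑ n ∈ Finset.Icc (-(N : ℤ)) (N : ℤ), fourierCoeff f n • fourier n x‖) ∧
      ∀ x : AddCircle T, ¬ ∃ ℓ : ℂ, Tendsto
        (fun N : ℕ => ∑ n ∈ Finset.Icc (-(N : ℤ)) (N : ℤ), fourierCoeff f n • fourier n x)
        atTop (𝓝 ℓ) :=
  Vale.Agent.Lib.P091.main_divergence φ hφm hφ0 hφo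

end Vale.Agent.Results.P091.A_main
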